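import Mathlib

/-!
# Field theory for S0010 (helper3): WP-FT of `notes/s0010/PLAN.md`

* `linearIndependent_pow_adjoin_pow`: if `t` is transcendental over a field `N` then
  `1, t, …, t^(q-1)` are linearly independent over `N(t^q)`.
-/

set_option autoImplicit false

namespace Crest.Agent.Helper3.S0010FT

open IntermediateField Polynomial
open scoped IntermediateField.algebraAdjoinAdjoin

/-- If `t` is transcendental over `N`, then `1, t, …, t^(q-1)` are linearly independent over
the subalgebra `N[t^q]`. -/
theorem linearIndependent_pow_algAdjoin_pow {N K : Type*} [Field N] [Field K] [Algebra N K]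
    {t : K} (ht : Transcendental N t) {q : ℕ} (hq : 0 < q) :
    LinearIndependent (Algebra.adjoin N {t ^ q}) (fun i : Fin q => t ^ (i : ℕ)) := by
  rw [Fintype.linearIndependent_iff]
  intro c hc
  have hex : ∀ i, ∃ f : N[X], (c i : K) = aeval (t ^ q) f := by
    intro i
    have h2 : (c i : K) ∈ (aeval (R := N) (t ^ q)).range := by
      rw [← Algebra.adjoin_singleton_eq_range_aeval]; exact (c i).2
    obtain ⟨f, hf⟩ := h2
    exact ⟨f, hf.symm⟩
  choose f hf using hex
  have h0 : (∑ i : Fin q, expand N q (f i) * X ^ (i : ℕ)) = 0 := by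
    apply (transcendental_iff.mp ht)
    rw [map_sum]
    rw [← hc]
    refine Finset.sum_congr rfl fun i _ => ?_
    rw [map_mul, expand_aeval, map_pow, aeval_X, ← hf i]
    rfl
  have hcoef : ∀ (i : Fin q) (n : ℕ), (f i).coeff n = 0 := by
    intro i n
    have h1 := congrArg (fun g : N[X] => g.coeff (q * n + i)) h0
    simp only [finsetSum_coeff, coeff_zero] at h1
    rw [Finset.sum_eq_single i] at h1
    · rw [coeff_mul_X_pow', if_pos (by omega), coeff_expand hq] at h1
      have : q * n + (i : ℕ) - (i : ℕ) = q * n := by omega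
      rw [this, if_pos (dvd_mul_right q n), Nat.mul_div_cancel_left n hq] at h1
      exact h1
    · intro j _ hji
      rw [coeff_mul_X_pow']
      split_ifs with hle
      · rw [coeff_expand hq, if_neg]
        intro hdvd
        apply hji
        obtain ⟨m, hm⟩ := hdvd
        have e1 : q * n + (i : ℕ) = q * m + (j : ℕ) := by omega
        have e2 := congrArg (· % q) e1
        simp only [Nat.mul_add_mod, Nat.mod_eq_of_lt i.2, Nat.mod_eq_of_lt j.2] at e2
        exact Fin.ext e2.symm
      · rfl
    · intro h; exact absurd (Finset.mem_univ i) h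
  intro i
  have : f i = 0 := Polynomial.ext fun n => by simpa using hcoef i n
  apply Subtype.ext
  rw [hf i, this]
  simp

/-- If `t` is transcendental over `N`, then `1, t, …, t^(q-1)` are linearly independent over
the field `N(t^q)`. -/
theorem linearIndependent_pow_adjoin_pow {N K : Type*} [Field N] [Field K] [Algebra N K]
    {t : K} (ht : Transcendental N t) {q : ℕ} (hq : 0 < q) :
    LinearIndependent N⟮t ^ q⟯ (fun i : Fin q => t ^ (i : ℕ)) := by
  have := linearIndependent_pow_algAdjoin_pow ht hq
  rwa [LinearIndependent.iff_fractionRing (R := Algebra.adjoin N {t ^ q}) (K := N⟮t ^ q⟯)] at this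

/-- Linear independence only depends on the image of the scalar field: a family independent over
`E₂` is independent over any `E₁` whose image in `K` is contained in that of `E₂`. -/
theorem linearIndependent_of_range_le {E₁ E₂ K : Type*} [Field E₁] [Field E₂] [Field K]
    [Algebra E₁ K] [Algebra E₂ K]
    (h : ∀ a : E₁, ∃ b : E₂, algebraMap E₂ K b = algebraMap E₁ K a)
    {ι : Type*} {v : ι → K} (hv : LinearIndependent E₂ v) : LinearIndependent E₁ v := by
  choose g hg using h
  rw [linearIndependent_iff'] at hv ⊢
  intro s c hc i hi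
  have h1 : ∑ i ∈ s, (g (c i)) • v i = 0 := by
    rw [← hc]
    refine Finset.sum_congr rfl fun j _ => ?_
    rw [Algebra.smul_def, Algebra.smul_def, hg]
  have h2 := hv s (fun i => g (c i)) h1 i hi
  have h3 : algebraMap E₁ K (c i) = 0 := by rw [← hg, h2, map_zero]
  exact (map_eq_zero (algebraMap E₁ K)).mp h3

section FG

variable {k K : Type*} [Field k] [Field K] [Algebra k K]

/-- A finitely generated field extension is finite over the field generated by any
transcendence basis. -/
theorem finiteDimensional_adjoin_transcendenceBasis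
    (hfg : ∃ s : Finset K, IntermediateField.adjoin k (s : Set K) = ⊤)
    {B : Set K} (hB : IsTranscendenceBasis k ((↑) : B → K)) :
    FiniteDimensional (IntermediateField.adjoin k B) K := by
  have alg : Algebra.IsAlgebraic (IntermediateField.adjoin k B) K := by
    have := hB.isAlgebraic_field
    rwa [Subtype.range_coe] at this
  obtain ⟨s, hs⟩ := hfg
  have hfin : FiniteDimensional (IntermediateField.adjoin k B)
      (IntermediateField.adjoin (IntermediateField.adjoin k B) (s : Set K)) :=
    IntermediateField.finiteDimensional_adjoin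
      (fun x _ => (Algebra.IsAlgebraic.isAlgebraic x).isIntegral)
  have htop : IntermediateField.adjoin (IntermediateField.adjoin k B) (s : Set K) = ⊤ := by
    apply IntermediateField.restrictScalars_injective k
    rw [IntermediateField.adjoin_adjoin_left, IntermediateField.restrictScalars_top,
      eq_top_iff, ← hs]
    exact IntermediateField.adjoin.mono _ _ _ Set.subset_union_right
  rw [htop] at hfin
  exact Module.Finite.equiv (IntermediateField.topEquiv (F := IntermediateField.adjoin k B)
    (E := K)).toLinearEquiv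

end FG

section G2

variable {k K : Type*} [Field k] [Field K] [Algebra k K] [IsAlgClosed k]

/-- An element outside the algebraically closed field `k` is transcendental over `k`. -/
theorem transcendental_of_notMem_range {a : K} (ha : a ∉ (algebraMap k K).range) :
    Transcendental k a := by
  intro halg
  exact ha (minpoly.mem_range_of_degree_eq_one k a
    (IsAlgClosed.degree_eq_one_of_irreducible k (minpoly.irreducible halg.isIntegral)))

/-- (G2) In a finitely generated extension `K` of an algebraically closed field `k`, an element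
which is a `p^n`-th power for every `n` lies in `k`. -/
theorem mem_range_of_forall_exists_pow_eq {p : ℕ} (hp : 1 < p)
    (hfg : ∃ s : Finset K, IntermediateField.adjoin k (s : Set K) = ⊤)
    {a : K} (ha : ∀ n : ℕ, ∃ b : K, b ^ (p ^ n) = a) : a ∈ (algebraMap k K).range := by
  by_contra hak
  have htr : Transcendental k a := transcendental_of_notMem_range hak
  have hind : AlgebraicIndepOn k id ({a} : Set K) :=
    (algebraicIndependent_singleton_iff (⟨a, rfl⟩ : ({a} : Set K))).mpr htr
  obtain ⟨B, haB, hB⟩ := exists_isTranscendenceBasis_superset hind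
  have haB' : a ∈ B := haB rfl
  have hfin := finiteDimensional_adjoin_transcendenceBasis hfg hB
  set S : Set K := B \ {a} with hS
  have htr0 : Transcendental (IntermediateField.adjoin k S) a := by
    have h1 := hB.1.transcendental_adjoin (s := {i : B | (i : K) ≠ a}) (i := ⟨a, haB'⟩) (by simp)
    have himg : (Subtype.val '' {i : B | (i : K) ≠ a}) = S := by
      ext x; simp only [Set.mem_image, Set.mem_ofPred_eq, Subtype.exists, exists_and_right,
        exists_eq_right, hS, Set.mem_sdiff, Set.mem_singleton_iff]
      tauto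
    rw [himg] at h1
    intro halg
    exact h1 ((IsFractionRing.isAlgebraic_iff (Algebra.adjoin k S)
      (IntermediateField.adjoin k S) K).mpr halg)
  obtain ⟨b, hb⟩ := ha (Module.finrank (IntermediateField.adjoin k B) K)
  have hq : 0 < p ^ (Module.finrank (IntermediateField.adjoin k B) K) := by positivity
  have htrb : Transcendental (IntermediateField.adjoin k S) b := by
    intro halg; exact htr0 (hb ▸ halg.pow _)
  have hli := linearIndependent_pow_adjoin_pow htrb hq
  rw [hb] at hli
  have hli' : LinearIndependent (IntermediateField.adjoin k B)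
      (fun i : Fin (p ^ (Module.finrank (IntermediateField.adjoin k B) K)) => b ^ (i : ℕ)) := by
    refine linearIndependent_of_range_le ?_ hli
    intro x
    have hx : (x : K) ∈ (IntermediateField.adjoin (IntermediateField.adjoin k S)
        ({a} : Set K)).restrictScalars k := by
      rw [IntermediateField.adjoin_adjoin_left]
      have : S ∪ {a} = B := by
        rw [hS, Set.sdiff_union_self]
        exact Set.union_eq_left.mpr (Set.singleton_subset_iff.mpr haB')
      rw [this]; exact x.2
    exact ⟨⟨x, hx⟩, rfl⟩
  have hle := hli'.fintype_card_le_finrank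
  rw [Fintype.card_fin] at hle
  exact absurd hle (not_le.mpr (Nat.lt_pow_self hp))

end G2

section Subfield

variable {K : Type*} [Field K]

/-- Finite generation in the `Subfield.closure` form of the frozen statement gives the
`IntermediateField.adjoin` form. -/
theorem adjoin_eq_top_of_closure_eq_top (k : Subfield K)
    (hK : ∃ s : Finset K, Subfield.closure ((k : Set K) ∪ (s : Set K)) = ⊤) :
    ∃ s : Finset K, IntermediateField.adjoin k (s : Set K) = ⊤ := by
  obtain ⟨s, hs⟩ := hK
  refine ⟨s, ?_⟩
  apply IntermediateField.toSubfield_injective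
  rw [IntermediateField.adjoin_toSubfield, IntermediateField.top_toSubfield, ← hs]
  congr 2
  ext x
  constructor
  · rintro ⟨a, rfl⟩
    exact a.2
  · intro hx
    exact ⟨⟨x, hx⟩, rfl⟩

/-- (G2), in the shape of the frozen statement: `k` is exactly the set of elements of `K` which
are `p^n`-th powers for every `n` (no assumption on the characteristic is needed). -/
theorem mem_subfield_iff_forall_exists_pow_eq {p : ℕ} (hp : 1 < p) (k : Subfield K)
    [IsAlgClosed k]
    (hK : ∃ s : Finset K, Subfield.closure ((k : Set K) ∪ (s : Set K)) = ⊤) (z : K) :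
    z ∈ k ↔ ∀ n : ℕ, ∃ w : K, w ^ (p ^ n) = z := by
  constructor
  · intro hz n
    obtain ⟨w, hw⟩ := IsAlgClosed.exists_pow_nat_eq (⟨z, hz⟩ : k) (n := p ^ n) (by positivity)
    exact ⟨w, by simpa using congrArg Subtype.val hw⟩
  · intro hz
    obtain ⟨c, hc⟩ := mem_range_of_forall_exists_pow_eq (k := k) hp
      (adjoin_eq_top_of_closure_eq_top k hK) hz
    rw [← hc]
    exact c.2

/-- Every ring isomorphism between two finitely generated extensions of algebraically closed
fields maps the one algebraically closed subfield onto the other. -/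
theorem map_subfield_eq_of_ringEquiv {p : ℕ} (hp : 1 < p) {L : Type*} [Field L]
    (k : Subfield K) (l : Subfield L) [IsAlgClosed k] [IsAlgClosed l]
    (hK : ∃ s : Finset K, Subfield.closure ((k : Set K) ∪ (s : Set K)) = ⊤)
    (hL : ∃ s : Finset L, Subfield.closure ((l : Set L) ∪ (s : Set L)) = ⊤)
    (α : K ≃+* L) : k.map α.toRingHom = l := by
  ext z
  rw [Subfield.mem_map, mem_subfield_iff_forall_exists_pow_eq hp l hL]
  constructor
  · rintro ⟨a, ha, rfl⟩ n
    obtain ⟨w, hw⟩ := (mem_subfield_iff_forall_exists_pow_eq hp k hK a).mp ha n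
    exact ⟨α w, by rw [← hw]; simp⟩
  · intro hz
    refine ⟨α.symm z, ?_, by simp⟩
    rw [mem_subfield_iff_forall_exists_pow_eq hp k hK]
    intro n
    obtain ⟨w, hw⟩ := hz n
    exact ⟨α.symm w, by rw [← hw]; simp⟩

end Subfield

section G1

open Cardinal

variable {k K : Type*} [Field k] [Field K] [Algebra k K]

/-- An element of an algebraically independent set is transcendental over the field generated
by the other elements. -/
theorem transcendental_adjoin_diff {B : Set K} (hB : AlgebraicIndependent k ((↑) : B → K))
    {a : K} (ha : a ∈ B) : Transcendental (IntermediateField.adjoin k (B \ {a})) a := by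
  have h1 := hB.transcendental_adjoin (s := {i : B | (i : K) ≠ a}) (i := ⟨a, ha⟩) (by simp)
  have himg : (Subtype.val '' {i : B | (i : K) ≠ a}) = B \ {a} := by
    ext x; simp only [Set.mem_image, Set.mem_ofPred_eq, Subtype.exists, exists_and_right,
      exists_eq_right, Set.mem_sdiff, Set.mem_singleton_iff]
    tauto
  rw [himg] at h1
  intro halg
  exact h1 ((IsFractionRing.isAlgebraic_iff (Algebra.adjoin k (B \ {a}))
    (IntermediateField.adjoin k (B \ {a})) K).mpr halg)

variable (p : ℕ) [Fact p.Prime] [CharP K p]

/-- `k(B)^p ⊆ k(B \ {t})(t^p)`. -/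
theorem map_frobenius_adjoin_le {B : Set K} {t : K} (ht : t ∈ B) :
    (IntermediateField.adjoin k B).toSubfield.map (frobenius K p) ≤
      (IntermediateField.adjoin (IntermediateField.adjoin k (B \ {t})) {t ^ p}).toSubfield := by
  rw [Subfield.map_le_iff_le_comap, IntermediateField.adjoin_toSubfield, Subfield.closure_le]
  rintro x (⟨c, rfl⟩ | hx)
  · show frobenius K p (algebraMap k K c) ∈
      IntermediateField.adjoin (IntermediateField.adjoin k (B \ {t})) {t ^ p}
    rw [frobenius_def, ← map_pow]
    exact IntermediateField.algebraMap_mem _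
      (⟨algebraMap k K (c ^ p), IntermediateField.algebraMap_mem _ _⟩ :
        IntermediateField.adjoin k (B \ {t}))
  · show x ^ p ∈ IntermediateField.adjoin (IntermediateField.adjoin k (B \ {t})) {t ^ p}
    by_cases hxt : x = t
    · subst hxt; exact IntermediateField.mem_adjoin_simple_self _ _
    · have hxN : x ∈ IntermediateField.adjoin k (B \ {t}) :=
        IntermediateField.subset_adjoin _ _ ⟨hx, hxt⟩
      exact IntermediateField.algebraMap_mem _
        (⟨x ^ p, pow_mem hxN p⟩ : IntermediateField.adjoin k (B \ {t}))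

/-- For two distinct elements `x, y` of an algebraically independent set `B`, the `p²` monomials
`x^i y^j` (`i, j < p`) are linearly independent over `k(B)^p`. -/
theorem linearIndependent_monomials_frobenius {B : Set K}
    (hB : AlgebraicIndependent k ((↑) : B → K)) {x y : K} (hx : x ∈ B) (hy : y ∈ B)
    (hxy : x ≠ y) :
    LinearIndependent ((IntermediateField.adjoin k B).toSubfield.map (frobenius K p))
      (fun ij : Fin p × Fin p => x ^ (ij.1 : ℕ) * y ^ (ij.2 : ℕ)) := by
  have hp : 0 < p := (Fact.out : p.Prime).pos
  have hliy := linearIndependent_pow_adjoin_pow (transcendental_adjoin_diff hB hy) hp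
  have hlix := linearIndependent_pow_adjoin_pow (transcendental_adjoin_diff hB hx) hp
  have hley := map_frobenius_adjoin_le (k := k) p hy
  have hlex := map_frobenius_adjoin_le (k := k) p hx
  rw [Fintype.linearIndependent_iff] at hliy hlix ⊢
  intro c hc ij
  have hmem : ∀ j : Fin p, (∑ i : Fin p, (c (i, j) : K) * x ^ (i : ℕ)) ∈
      IntermediateField.adjoin (IntermediateField.adjoin k (B \ {y})) {y ^ p} := by
    intro j
    refine sum_mem fun i _ => mul_mem (hley (c (i, j)).2) (pow_mem ?_ _)
    exact IntermediateField.algebraMap_mem _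
      (⟨x, IntermediateField.subset_adjoin _ _ ⟨hx, hxy⟩⟩ : IntermediateField.adjoin k (B \ {y}))
  have h1 := hliy (fun j => ⟨_, hmem j⟩) (by
    rw [← hc, Fintype.sum_prod_type_right]
    refine Finset.sum_congr rfl fun j _ => ?_
    simp only [Algebra.smul_def]
    show (∑ i : Fin p, (c (i, j) : K) * x ^ (i : ℕ)) * y ^ (j : ℕ) =
      ∑ i : Fin p, (c (i, j) : K) * (x ^ (i : ℕ) * y ^ (j : ℕ))
    rw [Finset.sum_mul]
    exact Finset.sum_congr rfl fun i _ => by ring)
  have h2 : ∀ j : Fin p, (∑ i : Fin p, (c (i, j) : K) * x ^ (i : ℕ)) = 0 := fun j => by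
    simpa using congrArg Subtype.val (h1 j)
  have h3 := hlix (fun i => ⟨(c (i, ij.2) : K), hlex (c (i, ij.2)).2⟩) (by
    rw [← h2 ij.2]
    refine Finset.sum_congr rfl fun i _ => ?_
    simp only [Algebra.smul_def]
    rfl) ij.1
  have h4 : (c (ij.1, ij.2) : K) = 0 := by simpa using congrArg Subtype.val h3
  exact Subtype.ext h4

/-- (G1), rank form: a finitely generated extension `K` of transcendence degree `≥ 2`, of
characteristic `p`, has degree at least `p²` over its subfield `K^p` of `p`-th powers. -/
theorem sq_le_rank_frobenius_fieldRange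
    (hfg : ∃ s : Finset K, IntermediateField.adjoin k (s : Set K) = ⊤)
    (h2 : 2 ≤ Algebra.trdeg k K) :
    (p : Cardinal) ^ 2 ≤ Module.rank (frobenius K p).fieldRange K := by
  obtain ⟨B, hB⟩ := exists_isTranscendenceBasis k K
  have hcard := hB.cardinalMk_eq_trdeg
  rw [← hcard] at h2
  obtain ⟨⟨x, hx⟩, ⟨y, hy⟩, hne⟩ := Cardinal.two_le_iff.mp h2
  have hxy : x ≠ y := fun h => hne (Subtype.ext h)
  have hfin := finiteDimensional_adjoin_transcendenceBasis hfg hB
  set M : Subfield K := (IntermediateField.adjoin k B).toSubfield with hM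
  set φ := frobenius K p with hφ
  have hle1 : M.map φ ≤ M := by
    rw [Subfield.map_le_iff_le_comap]; intro a ha; exact pow_mem ha p
  have hle2 : M.map φ ≤ φ.fieldRange := by
    rintro _ ⟨a, _, rfl⟩; exact RingHom.mem_fieldRange.mpr ⟨a, rfl⟩
  have hN : Module.rank M K < ℵ₀ := by
    have : Module.Finite M K := hfin
    exact Module.rank_lt_aleph0 M K
  have hNpos : 0 < Module.rank M K := rank_pos
  have e1 := Subfield.relrank_mul_rank_top hle1
  have e2 := Subfield.relrank_mul_rank_top hle2
  have e3 : Subfield.relrank (M.map φ) φ.fieldRange = Module.rank M K := by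
    rw [RingHom.fieldRange_eq_map, Subfield.relrank_map_map, Subfield.relrank_top_right]
  have e4 : (p : Cardinal) ^ 2 ≤ Subfield.relrank (M.map φ) M := by
    rw [Subfield.relrank_eq_rank_of_le hle1]
    have hli := linearIndependent_monomials_frobenius (k := k) p hB.1 hx hy hxy
    have hmem : ∀ ij : Fin p × Fin p, x ^ (ij.1 : ℕ) * y ^ (ij.2 : ℕ) ∈
        Subfield.extendScalars hle1 := fun ij =>
      mul_mem (pow_mem (IntermediateField.subset_adjoin k B hx) _)
        (pow_mem (IntermediateField.subset_adjoin k B hy) _)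
    have hli' : LinearIndependent (M.map φ) (fun ij : Fin p × Fin p =>
        (⟨x ^ (ij.1 : ℕ) * y ^ (ij.2 : ℕ), hmem ij⟩ : Subfield.extendScalars hle1)) := by
      apply LinearIndependent.of_comp (Subfield.extendScalars hle1).val.toLinearMap
      exact hli
    have := hli'.cardinal_lift_le_rank
    simpa [pow_two] using this
  rw [e3] at e2
  by_contra hlt
  rw [not_le] at hlt
  have hr : Module.rank φ.fieldRange K < ℵ₀ :=
    hlt.trans (by exact_mod_cast Cardinal.natCast_lt_aleph0 (n := p ^ 2))
  obtain ⟨r, hr'⟩ := Cardinal.lt_aleph0.mp hr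
  obtain ⟨N, hN'⟩ := Cardinal.lt_aleph0.mp hN
  have h5 : (p : Cardinal) ^ 2 * Module.rank M K ≤
      Module.rank M K * Module.rank φ.fieldRange K := by
    rw [e2, ← e1]; exact mul_le_mul_left e4 _
  rw [hr', hN'] at h5
  rw [hr'] at hlt
  rw [hN'] at hNpos
  norm_cast at h5 hlt hNpos
  nlinarith

end G1

section Consequences

open Cardinal Polynomial

variable {K : Type*} [Field K] (p : ℕ) [Fact p.Prime] [CharP K p]

omit [CharP K p] in
/-- If `E ⊇ K^p` then `E(x)` has dimension at most `p` over `E`. -/
theorem rank_adjoin_simple_le (E : Subfield K) (hE : ∀ a : K, a ^ p ∈ E) (x : K) :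
    Module.rank E (IntermediateField.adjoin E ({x} : Set K)) ≤ p := by
  have hp : 0 < p := (Fact.out : p.Prime).pos
  have hroot : aeval x (X ^ p - C (⟨x ^ p, hE x⟩ : E)) = 0 := by
    simp only [map_sub, map_pow, aeval_X, aeval_C]
    exact sub_self _
  have hne : (X ^ p - C (⟨x ^ p, hE x⟩ : E) : E[X]) ≠ 0 := X_pow_sub_C_ne_zero hp _
  have hint : IsIntegral E x := ⟨_, monic_X_pow_sub_C _ hp.ne', hroot⟩
  have := IntermediateField.adjoin.finiteDimensional hint
  rw [← Module.finrank_eq_rank, IntermediateField.adjoin.finrank hint]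
  have h1 := Polynomial.natDegree_le_of_dvd (minpoly.dvd E x hroot) hne
  rw [natDegree_X_pow_sub_C] at h1
  exact_mod_cast h1

omit [Fact p.Prime] [CharP K p] in
theorem range_algebraMap_subfield (E : Subfield K) :
    Set.range (algebraMap E K) = (E : Set K) := by
  ext x
  constructor
  · rintro ⟨a, rfl⟩
    exact a.2
  · intro hx
    exact ⟨⟨x, hx⟩, rfl⟩

omit [Fact p.Prime] [CharP K p] in
/-- `Subfield.closure (E ∪ {x})` is the intermediate field `E(x)`. -/
theorem mem_closure_union_singleton_iff (E : Subfield K) (x y : K) :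
    y ∈ Subfield.closure ((E : Set K) ∪ {x}) ↔ y ∈ IntermediateField.adjoin E ({x} : Set K) := by
  rw [← IntermediateField.mem_toSubfield, IntermediateField.adjoin_toSubfield,
    range_algebraMap_subfield]

/-- A vector space over an infinite field is not a finite union of subspaces of smaller
dimension. -/
theorem exists_notMem_of_rank_lt {F V : Type*} [Field F] [Infinite F] [AddCommGroup V]
    [Module F V] {c : Cardinal} (hc : c ≤ Module.rank F V) (S : Finset (Submodule F V))
    (hS : ∀ W ∈ S, Module.rank F W < c) : ∃ y : V, ∀ W ∈ S, y ∉ W := by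
  have htop : ⊤ ∉ S := fun h => by
    have := hS ⊤ h
    rw [rank_top] at this
    exact absurd hc (not_le.mpr this)
  have h1 := Subspace.biUnion_ne_univ_of_top_notMem htop
  rw [Ne, Set.eq_univ_iff_forall, not_forall] at h1
  obtain ⟨y, hy⟩ := h1
  exact ⟨y, fun W hW hyW => hy (Set.mem_biUnion hW hyW)⟩

/-- Avoidance: if `[K : K^p] ≥ p²` and `K^p` is infinite, then for finitely many `x` and finitely
many finite sets `t` of at most `p + 1` elements there is `y` outside all `K^p(x)` and outside
all `K^p`-spans of the `t`. -/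
theorem exists_avoiding
    (hrank : (p : Cardinal) ^ 2 ≤ Module.rank (frobenius K p).fieldRange K)
    [Infinite (frobenius K p).fieldRange]
    (xs : Finset K) (ts : Finset (Finset K)) (hts : ∀ t ∈ ts, t.card ≤ p + 1) :
    ∃ y : K, (∀ x ∈ xs, y ∉ Subfield.closure (((frobenius K p).fieldRange : Set K) ∪ {x})) ∧
      (∀ t ∈ ts, y ∉ Submodule.span (frobenius K p).fieldRange (t : Set K)) := by
  classical
  have hp2 : 2 ≤ p := (Fact.out : p.Prime).two_le
  let S : Finset (Submodule (frobenius K p).fieldRange K) :=
    xs.image (fun x : K => (IntermediateField.adjoin (frobenius K p).fieldRange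
      ({x} : Set K)).toSubalgebra.toSubmodule) ∪
    ts.image (fun t : Finset K => Submodule.span (frobenius K p).fieldRange (t : Set K))
  obtain ⟨y, hy⟩ := exists_notMem_of_rank_lt hrank S (by
    intro W hW
    rw [Finset.mem_union, Finset.mem_image, Finset.mem_image] at hW
    rcases hW with ⟨x, _, rfl⟩ | ⟨t, ht, rfl⟩
    · refine lt_of_le_of_lt (rank_adjoin_simple_le p (frobenius K p).fieldRange
        (fun a => ⟨a, rfl⟩) x) ?_
      exact_mod_cast (by nlinarith : p < p ^ 2)
    · refine lt_of_le_of_lt (rank_span_finset_le t) ?_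
      exact_mod_cast (by nlinarith [hts t ht] : t.card < p ^ 2))
  refine ⟨y, fun x hx hyx => hy _ (Finset.mem_union_left _ (Finset.mem_image_of_mem _ hx)) ?_,
    fun t ht => hy _ (Finset.mem_union_right _ (Finset.mem_image_of_mem _ ht))⟩
  exact (mem_closure_union_singleton_iff _ x y).mp hyx

end Consequences

/-! ### Final forms, with the hypotheses in the shape of the frozen statement S0010 -/

section Final

open Cardinal

variable {K : Type*} [Field K] (p : ℕ) [Fact p.Prime] [CharP K p]

/-- (G1), rank form: `[K : K^p] ≥ p²`. -/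
theorem sq_le_rank_of_subfield (k : Subfield K)
    (hK : ∃ s : Finset K, Subfield.closure ((k : Set K) ∪ (s : Set K)) = ⊤)
    (hK2 : 2 ≤ Algebra.trdeg k K) :
    (p : Cardinal) ^ 2 ≤ Module.rank (frobenius K p).fieldRange K :=
  sq_le_rank_frobenius_fieldRange (k := k) p (adjoin_eq_top_of_closure_eq_top k hK) hK2

/-- (G0): `K^p` is infinite. -/
theorem infinite_frobenius_fieldRange (k : Subfield K) [IsAlgClosed k] :
    Infinite (frobenius K p).fieldRange := by
  have h1 : Infinite k := inferInstance
  have h2 : Infinite K := Infinite.of_injective k.subtype Subtype.val_injective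
  exact Infinite.of_injective (frobenius K p).rangeRestrictField (RingHom.injective _)

/-- (G0), set form. -/
theorem infinite_setOf_pow (k : Subfield K) [IsAlgClosed k] :
    Set.Infinite {z : K | ∃ w : K, w ^ p = z} := by
  have := infinite_frobenius_fieldRange p k
  have h : {z : K | ∃ w : K, w ^ p = z} = ((frobenius K p).fieldRange : Set K) := by
    ext z; exact Iff.rfl
  rw [h]
  exact Set.infinite_coe_iff.mp this

/-- The elements `∑ i, a i ^ p * x ^ i` lie in `K^p(x)`. -/
theorem sum_pow_mul_pow_mem_closure (a : Fin p → K) (x : K) :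
    ∑ i, a i ^ p * x ^ (i : ℕ) ∈
      Subfield.closure (((frobenius K p).fieldRange : Set K) ∪ {x}) := by
  refine sum_mem fun i _ => mul_mem ?_ (pow_mem ?_ _)
  · apply Subfield.subset_closure
    left
    exact ⟨a i, rfl⟩
  · apply Subfield.subset_closure
    right
    rfl

variable (k : Subfield K) [IsAlgClosed k]
  (hK : ∃ s : Finset K, Subfield.closure ((k : Set K) ∪ (s : Set K)) = ⊤)
  (hK2 : 2 ≤ Algebra.trdeg k K)

include hK hK2

/-- Avoidance: for finitely many `x` and finitely many finite sets `t` of at most `p + 1`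
elements there is `y` outside all `K^p(x)` and outside all `K^p`-spans of the `t`. -/
theorem exists_avoiding_of_subfield (xs : Finset K) (ts : Finset (Finset K))
    (hts : ∀ t ∈ ts, t.card ≤ p + 1) :
    ∃ y : K, (∀ x ∈ xs, y ∉ Subfield.closure (((frobenius K p).fieldRange : Set K) ∪ {x})) ∧
      (∀ t ∈ ts, y ∉ Submodule.span (frobenius K p).fieldRange (t : Set K)) :=
  have := infinite_frobenius_fieldRange p k
  exists_avoiding p (sq_le_rank_of_subfield p k hK hK2) xs ts hts

/-- (Part): every `x` has a partner `y ∉ K^p(x)`. -/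
theorem exists_notMem_pAdj (x : K) :
    ∃ y : K, y ∉ Subfield.closure (((frobenius K p).fieldRange : Set K) ∪ {x}) := by
  obtain ⟨y, hy, -⟩ := exists_avoiding_of_subfield p k hK hK2 {x} ∅ (by simp)
  exact ⟨y, hy x (Finset.mem_singleton_self x)⟩

/-- (Part), two-partner form. -/
theorem exists_notMem_pAdj₂ (x x' : K) :
    ∃ y : K, y ∉ Subfield.closure (((frobenius K p).fieldRange : Set K) ∪ {x}) ∧
      y ∉ Subfield.closure (((frobenius K p).fieldRange : Set K) ∪ {x'}) := by
  classical
  obtain ⟨y, hy, -⟩ := exists_avoiding_of_subfield p k hK hK2 {x, x'} ∅ (by simp)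
  exact ⟨y, hy x (by simp), hy x' (by simp)⟩

/-- (Part), elementwise form: `y` is not of the form `∑ i, a i ^ p * x ^ i`. -/
theorem exists_ne_sum_pow (x : K) :
    ∃ y : K, ∀ a : Fin p → K, ∑ i, a i ^ p * x ^ (i : ℕ) ≠ y := by
  obtain ⟨y, hy⟩ := exists_notMem_pAdj p k hK hK2 x
  exact ⟨y, fun a h => hy (h ▸ sum_pow_mul_pow_mem_closure p a x)⟩

/-- Non-perfectness: some element of `K` is not a `p`-th power. -/
theorem exists_notMem_fieldRange : ∃ w : K, w ∉ (frobenius K p).fieldRange := by
  obtain ⟨y, hy⟩ := exists_notMem_pAdj p k hK hK2 1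
  exact ⟨y, fun h => hy (Subfield.subset_closure (Or.inl h))⟩

/-- Non-perfectness, elementwise. -/
theorem exists_forall_pow_ne : ∃ w : K, ∀ a : K, a ^ p ≠ w := by
  obtain ⟨w, hw⟩ := exists_notMem_fieldRange p k hK hK2
  exact ⟨w, fun a h => hw ⟨a, h⟩⟩

/-- (G1): a `p`-independent pair exists. -/
theorem exists_pIndep :
    ∃ x y : K, x ∉ (frobenius K p).fieldRange ∧
      y ∉ Subfield.closure (((frobenius K p).fieldRange : Set K) ∪ {x}) := by
  obtain ⟨x, hx⟩ := exists_notMem_fieldRange p k hK hK2
  obtain ⟨y, hy⟩ := exists_notMem_pAdj p k hK hK2 x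
  exact ⟨x, y, hx, hy⟩

/-- (G1), elementwise form. -/
theorem exists_pIndep_elementwise :
    ∃ x y : K, (∀ a : K, a ^ p ≠ x) ∧ (∀ a : Fin p → K, ∑ i, a i ^ p * x ^ (i : ℕ) ≠ y) := by
  obtain ⟨x, y, hx, hy⟩ := exists_pIndep p k hK hK2
  exact ⟨x, y, fun a h => hx ⟨a, h⟩, fun a h => hy (h ▸ sum_pow_mul_pow_mem_closure p a x)⟩

end Final

end Crest.Agent.Helper3.S0010FT
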