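import Mathlib

/-!
Package C (helper3 part) for S0423: elementary facts about the weight `w(v) = v * exp (-v)`,
its level sets (the `r`-parametrisation), and the shifted-exponential survival functions
`v ↦ min 1 (exp (-(v - m) / s))`.
-/

open Real MeasureTheory Set Filter

namespace Crest.Agent.Helper3

/-- The weight `w(v) = v * exp (-v)`. -/
noncomputable def wgt (v : ℝ) : ℝ := v * Real.exp (-v)

/-- The survival function of `m + s * X`, `X` a mean-one exponential variable. -/
noncomputable def expSurv (m s v : ℝ) : ℝ := min 1 (Real.exp (-(v - m) / s))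

/-- Left end point of the level set of `wgt` in the `r`-parametrisation. -/
noncomputable def pfun (r : ℝ) : ℝ := Real.log r / (r - 1)

/-- Right end point of the level set of `wgt` in the `r`-parametrisation. -/
noncomputable def qfun (r : ℝ) : ℝ := r * pfun r

theorem wgt_le (v : ℝ) : wgt v ≤ Real.exp (-1) := by
  unfold wgt
  have h1 : v ≤ Real.exp (v - 1) := by
    have := Real.add_one_le_exp (v - 1)
    linarith
  have h2 : Real.exp (v - 1) * Real.exp (-v) = Real.exp (-1) := by
    rw [← Real.exp_add]; congr 1; ring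
  calc v * Real.exp (-v) ≤ Real.exp (v - 1) * Real.exp (-v) :=
        mul_le_mul_of_nonneg_right h1 (Real.exp_pos _).le
    _ = Real.exp (-1) := h2

theorem wgt_nonneg {v : ℝ} (hv : 0 ≤ v) : 0 ≤ wgt v :=
  mul_nonneg hv (Real.exp_pos _).le

theorem wgt_pos {v : ℝ} (hv : 0 < v) : 0 < wgt v :=
  mul_pos hv (Real.exp_pos _)

theorem continuous_wgt : Continuous wgt := by
  unfold wgt; fun_prop

theorem hasDerivAt_wgt (v : ℝ) : HasDerivAt wgt ((1 - v) * Real.exp (-v)) v := by
  have h1 : HasDerivAt (fun x : ℝ => Real.exp (-x)) (-Real.exp (-v)) v := by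
    have := (hasDerivAt_neg v).exp
    simpa using this
  have h2 := (hasDerivAt_id v).mul h1
  have : (1 - v) * Real.exp (-v) = 1 * Real.exp (-v) + id v * -Real.exp (-v) := by
    simp only [id]; ring
  rw [this]
  exact h2

theorem monotoneOn_wgt : MonotoneOn wgt (Iic 1) := by
  apply monotoneOn_of_deriv_nonneg (convex_Iic 1) continuous_wgt.continuousOn
  · exact fun x _ => (hasDerivAt_wgt x).differentiableAt.differentiableWithinAt
  · intro x hx
    rw [interior_Iic] at hx
    rw [(hasDerivAt_wgt x).deriv]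
    exact mul_nonneg (by linarith [hx.out]) (Real.exp_pos _).le

theorem antitoneOn_wgt : AntitoneOn wgt (Ici 1) := by
  apply antitoneOn_of_deriv_nonpos (convex_Ici 1) continuous_wgt.continuousOn
  · exact fun x _ => (hasDerivAt_wgt x).differentiableAt.differentiableWithinAt
  · intro x hx
    rw [interior_Ici] at hx
    rw [(hasDerivAt_wgt x).deriv]
    exact mul_nonpos_of_nonpos_of_nonneg (by linarith [hx.out]) (Real.exp_pos _).le

/-! ### The `r`-parametrisation of the level sets -/

theorem pfun_pos {r : ℝ} (hr : 1 < r) : 0 < pfun r :=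
  div_pos (Real.log_pos hr) (by linarith)

theorem pfun_le_one {r : ℝ} (hr : 1 < r) : pfun r ≤ 1 := by
  unfold pfun
  rw [div_le_one (by linarith)]
  exact Real.log_le_sub_one_of_pos (by linarith)

theorem inv_le_pfun {r : ℝ} (hr : 1 < r) : r⁻¹ ≤ pfun r := by
  unfold pfun
  have h0 : 0 < r := by linarith
  rw [le_div_iff₀ (by linarith)]
  have := Real.one_sub_inv_le_log_of_pos h0
  have h2 : r⁻¹ * (r - 1) = 1 - r⁻¹ := by field_simp
  linarith

theorem one_le_qfun {r : ℝ} (hr : 1 < r) : 1 ≤ qfun r := by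
  unfold qfun
  have h0 : 0 < r := by linarith
  have := mul_le_mul_of_nonneg_left (inv_le_pfun hr) h0.le
  rwa [mul_inv_cancel₀ h0.ne'] at this

theorem log_le_qfun {r : ℝ} (hr : 1 < r) : Real.log r ≤ qfun r := by
  unfold qfun pfun
  have h0 : 0 < r - 1 := by linarith
  have hl : 0 ≤ Real.log r := (Real.log_pos hr).le
  rw [← mul_div_assoc, le_div_iff₀ h0]
  nlinarith

theorem pfun_le_qfun {r : ℝ} (hr : 1 < r) : pfun r ≤ qfun r :=
  (pfun_le_one hr).trans (one_le_qfun hr)

theorem qfun_pos {r : ℝ} (hr : 1 < r) : 0 < qfun r :=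
  lt_of_lt_of_le one_pos (one_le_qfun hr)

theorem wgt_pfun_eq_wgt_qfun {r : ℝ} (hr : 1 < r) : wgt (pfun r) = wgt (qfun r) := by
  have h0 : 0 < r := by linarith
  have h1 : (r - 1) ≠ 0 := by linarith
  have key : -(qfun r) = -(pfun r) + -Real.log r := by
    unfold qfun pfun; field_simp; ring
  unfold wgt
  rw [key, Real.exp_add, Real.exp_neg (Real.log r), Real.exp_log h0]
  unfold qfun
  field_simp

/-- On `[p, q]` the weight is at least its value at the end points. -/
theorem wgt_ge_of_mem {r v : ℝ} (hr : 1 < r) (h1 : pfun r ≤ v) (h2 : v ≤ qfun r) :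
    wgt (pfun r) ≤ wgt v := by
  rcases le_total v 1 with hv | hv
  · exact monotoneOn_wgt (mem_Iic.2 (pfun_le_one hr)) (mem_Iic.2 hv) h1
  · rw [wgt_pfun_eq_wgt_qfun hr]
    exact antitoneOn_wgt (mem_Ici.2 hv) (mem_Ici.2 (one_le_qfun hr)) h2

/-- To the left of `p` the weight is at most its value at the end points. -/
theorem wgt_le_of_le_pfun {r v : ℝ} (hr : 1 < r) (h : v ≤ pfun r) : wgt v ≤ wgt (pfun r) :=
  monotoneOn_wgt (mem_Iic.2 (h.trans (pfun_le_one hr))) (mem_Iic.2 (pfun_le_one hr)) h

/-- To the right of `q` the weight is at most its value at the end points. -/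
theorem wgt_le_of_qfun_le {r v : ℝ} (hr : 1 < r) (h : qfun r ≤ v) : wgt v ≤ wgt (pfun r) := by
  rw [wgt_pfun_eq_wgt_qfun hr]
  exact antitoneOn_wgt (mem_Ici.2 (one_le_qfun hr)) (mem_Ici.2 ((one_le_qfun hr).trans h)) h

theorem continuousOn_pfun : ContinuousOn pfun (Ioi 1) := by
  unfold pfun
  apply ContinuousOn.div
  · exact Real.continuousOn_log.mono (fun x hx => by
      simp only [mem_Ioi] at hx; simp only [mem_compl_iff, mem_singleton_iff]; linarith)
  · fun_prop
  · intro x hx; simp only [mem_Ioi] at hx; linarith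

theorem continuousOn_qfun : ContinuousOn qfun (Ioi 1) := by
  unfold qfun
  exact continuousOn_id.mul continuousOn_pfun

/-- The level `wgt (pfun r)` is close to the maximum `exp (-1)` when `r` is close to `1`. -/
theorem exp_neg_one_sub_le_wgt_pfun {r : ℝ} (hr : 1 < r) :
    Real.exp (-1) - (r - 1) ≤ wgt (pfun r) := by
  have h0 : 0 < r := by linarith
  have hinv : r⁻¹ ≤ 1 := inv_le_one_of_one_le₀ hr.le
  have h1 : wgt r⁻¹ ≤ wgt (pfun r) :=
    monotoneOn_wgt (mem_Iic.2 hinv) (mem_Iic.2 (pfun_le_one hr)) (inv_le_pfun hr)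
  have h2 : r⁻¹ * Real.exp (-1) ≤ wgt r⁻¹ := by
    unfold wgt
    apply mul_le_mul_of_nonneg_left _ (inv_pos.2 h0).le
    exact Real.exp_le_exp.2 (by linarith)
  have h3 : Real.exp (-1) ≤ 1 := by
    rw [← Real.exp_zero]; exact Real.exp_le_exp.2 (by norm_num)
  have h4 : 0 < Real.exp (-1) := Real.exp_pos _
  have h5 : 1 - r⁻¹ ≤ r - 1 := by
    have : r⁻¹ * r = 1 := inv_mul_cancel₀ h0.ne'
    have hinv0 : 0 < r⁻¹ := inv_pos.2 h0
    nlinarith
  have h6 : Real.exp (-1) - r⁻¹ * Real.exp (-1) ≤ r - 1 := by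
    have : Real.exp (-1) - r⁻¹ * Real.exp (-1) = (1 - r⁻¹) * Real.exp (-1) := by ring
    rw [this]
    have h7 : 0 ≤ 1 - r⁻¹ := by linarith
    nlinarith
  linarith

/-- The level `wgt (qfun r)` is small when `r` is large. -/
theorem wgt_qfun_le {r : ℝ} (hr : Real.exp 1 ≤ r) : wgt (qfun r) ≤ Real.log r / r := by
  have he : (1 : ℝ) < Real.exp 1 := by
    have := Real.add_one_le_exp (1 : ℝ); linarith
  have hr1 : 1 < r := lt_of_lt_of_le he hr
  have h0 : 0 < r := by linarith
  have hlog : 1 ≤ Real.log r := by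
    rw [Real.le_log_iff_exp_le h0]; exact hr
  have h1 : wgt (qfun r) ≤ wgt (Real.log r) :=
    antitoneOn_wgt (mem_Ici.2 hlog) (mem_Ici.2 (one_le_qfun hr1)) (log_le_qfun hr1)
  have h2 : wgt (Real.log r) = Real.log r / r := by
    unfold wgt
    rw [Real.exp_neg, Real.exp_log h0, div_eq_mul_inv]
  rw [← h2]; exact h1

theorem tendsto_wgt_qfun : Tendsto (fun r => wgt (qfun r)) atTop (nhds 0) := by
  have h1 : Tendsto (fun r : ℝ => Real.log r / r) atTop (nhds 0) := by
    have := Real.tendsto_pow_log_div_mul_add_atTop 1 0 1 one_ne_zero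
    simpa using this
  have he : (1 : ℝ) < Real.exp 1 := by
    have := Real.add_one_le_exp (1 : ℝ); linarith
  refine tendsto_of_tendsto_of_tendsto_of_le_of_le' tendsto_const_nhds h1 ?_ ?_
  · filter_upwards [eventually_ge_atTop (Real.exp 1)] with r hr
    exact wgt_nonneg (qfun_pos (lt_of_lt_of_le he hr)).le
  · filter_upwards [eventually_ge_atTop (Real.exp 1)] with r hr
    exact wgt_qfun_le hr


/-! ### The comparison survival functions -/

theorem expSurv_pos (m s v : ℝ) : 0 < expSurv m s v := lt_min one_pos (Real.exp_pos _)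

theorem expSurv_le_one (m s v : ℝ) : expSurv m s v ≤ 1 := min_le_left _ _

theorem expSurv_mono_m {s : ℝ} (hs : 0 < s) {m1 m2 : ℝ} (h : m1 ≤ m2) (v : ℝ) :
    expSurv m1 s v ≤ expSurv m2 s v := by
  unfold expSurv
  apply min_le_min le_rfl
  apply Real.exp_le_exp.2
  apply div_le_div_of_nonneg_right _ hs.le
  linarith

theorem continuous_expSurv (m s : ℝ) : Continuous (expSurv m s) := by
  unfold expSurv; fun_prop

theorem expSurv_of_le {s : ℝ} (hs : 0 < s) {m v : ℝ} (h : v ≤ m) : expSurv m s v = 1 := by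
  unfold expSurv
  apply min_eq_left
  rw [← Real.exp_zero]
  apply Real.exp_le_exp.2
  apply div_nonneg _ hs.le
  linarith

theorem expSurv_of_ge {s : ℝ} (hs : 0 < s) {m v : ℝ} (h : m ≤ v) :
    expSurv m s v = Real.exp (-(v - m) / s) := by
  unfold expSurv
  apply min_eq_right
  rw [← Real.exp_zero]
  apply Real.exp_le_exp.2
  apply div_nonpos_of_nonpos_of_nonneg _ hs.le
  linarith

theorem integrableOn_wgt : IntegrableOn wgt (Ioi 0) := by
  have h := Real.GammaIntegral_convergent (s := 2) (by norm_num)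
  refine h.congr_fun (fun x _ => ?_) measurableSet_Ioi
  have h1 : (2 : ℝ) - 1 = 1 := by norm_num
  simp only [h1, Real.rpow_one]
  unfold wgt; ring

theorem integrableOn_wgt_mul_expSurv (m s : ℝ) :
    IntegrableOn (fun v => wgt v * expSurv m s v) (Ioi 0) := by
  refine Integrable.mono' integrableOn_wgt ?_ ?_
  · exact (continuous_wgt.mul (continuous_expSurv m s)).aestronglyMeasurable
  · filter_upwards [ae_restrict_mem measurableSet_Ioi] with v hv
    have hv0 : (0 : ℝ) ≤ v := le_of_lt hv
    rw [Real.norm_eq_abs, abs_of_nonneg (mul_nonneg (wgt_nonneg hv0) (expSurv_pos m s v).le)]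
    exact mul_le_of_le_one_right (wgt_nonneg hv0) (expSurv_le_one m s v)

/-- (C0) integrability of the integrand of `Psi`. -/
theorem integrableOn_psi_integrand (m s : ℝ) :
    IntegrableOn (fun v : ℝ => v * Real.exp (-v) * min 1 (Real.exp (-(v - m) / s))) (Ioi 0) :=
  integrableOn_wgt_mul_expSurv m s

/-- (C2) `Psi` is monotone in `m`. -/
theorem psi_mono {s : ℝ} (hs : 0 < s) {m1 m2 : ℝ} (h : m1 ≤ m2) :
    ∫ v in Ioi 0, v * Real.exp (-v) * min 1 (Real.exp (-(v - m1) / s)) ≤
      ∫ v in Ioi 0, v * Real.exp (-v) * min 1 (Real.exp (-(v - m2) / s)) := by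
  apply setIntegral_mono_on (integrableOn_psi_integrand m1 s) (integrableOn_psi_integrand m2 s)
    measurableSet_Ioi
  intro v hv
  exact mul_le_mul_of_nonneg_left (expSurv_mono_m hs h v) (wgt_nonneg (le_of_lt hv))

theorem integrableOn_exp_neg_sub_div {s : ℝ} (hs : 0 < s) (m : ℝ) :
    IntegrableOn (fun v : ℝ => Real.exp (-(v - m) / s)) (Ioi m) := by
  have ha : -1 / s < 0 := by
    apply div_neg_of_neg_of_pos (by norm_num) hs
  have h : IntegrableOn (fun v : ℝ => Real.exp (m / s) * Real.exp (-1 / s * v)) (Ioi m) :=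
    (integrableOn_exp_mul_Ioi ha m).const_mul (Real.exp (m / s))
  refine IntegrableOn.congr_fun h (fun v _ => ?_) measurableSet_Ioi
  show Real.exp (m / s) * Real.exp (-1 / s * v) = Real.exp (-(v - m) / s)
  rw [← Real.exp_add]; congr 1; field_simp; ring

theorem integral_exp_neg_sub_div {s : ℝ} (hs : 0 < s) (m : ℝ) :
    ∫ v in Ioi m, Real.exp (-(v - m) / s) = s := by
  have ha : -1 / s < 0 := by
    apply div_neg_of_neg_of_pos (by norm_num) hs
  have h : ∀ v : ℝ, Real.exp (-(v - m) / s) = Real.exp (m / s) * Real.exp ((-1 / s) * v) := by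
    intro v
    rw [← Real.exp_add]; congr 1; field_simp; ring
  simp_rw [h]
  rw [integral_const_mul, integral_exp_mul_Ioi ha m]
  have h2 : Real.exp (m / s) * Real.exp (-1 / s * m) = 1 := by
    have h0 : m / s + -1 / s * m = 0 := by field_simp; ring
    rw [← Real.exp_add, h0, Real.exp_zero]
  have hs' : s ≠ 0 := hs.ne'
  calc Real.exp (m / s) * (-Real.exp (-1 / s * m) / (-1 / s))
      = (Real.exp (m / s) * Real.exp (-1 / s * m)) * s := by field_simp
    _ = s := by rw [h2, one_mul]

theorem expSurv_sub_indicator_eq {s : ℝ} (hs : 0 < s) (m v : ℝ) :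
    expSurv m s v - (Iio (0 : ℝ)).indicator (fun _ => (1 : ℝ)) v =
      (Ioi m).indicator (fun v => Real.exp (-(v - m) / s)) v
        + ((Iic m).indicator (fun _ => (1 : ℝ)) v - (Iio (0 : ℝ)).indicator (fun _ => (1 : ℝ)) v) := by
  rcases le_or_gt v m with hvm | hvm
  · have h1 : v ∉ Ioi m := by simpa using hvm
    have h2 : v ∈ Iic m := hvm
    rw [expSurv_of_le hs hvm, indicator_of_notMem h1, indicator_of_mem h2]; ring
  · have h1 : v ∈ Ioi m := hvm
    have h2 : v ∉ Iic m := by simpa using hvm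
    rw [expSurv_of_ge hs hvm.le, indicator_of_mem h1, indicator_of_notMem h2]; ring

theorem integrable_Iic_sub_Iio (m : ℝ) :
    Integrable (fun v : ℝ => (Iic m).indicator (fun _ => (1 : ℝ)) v
      - (Iio (0 : ℝ)).indicator (fun _ => (1 : ℝ)) v) ∧
    ∫ v : ℝ, ((Iic m).indicator (fun _ => (1 : ℝ)) v
      - (Iio (0 : ℝ)).indicator (fun _ => (1 : ℝ)) v) = m := by
  rcases le_or_gt 0 m with hm | hm
  · have hfun : (fun v : ℝ => (Iic m).indicator (fun _ => (1 : ℝ)) v
        - (Iio (0 : ℝ)).indicator (fun _ => (1 : ℝ)) v) = (Icc 0 m).indicator (fun _ => (1 : ℝ)) := by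
      funext v
      by_cases h1 : v < 0
      · have h2 : v ≤ m := by linarith
        have h3 : v ∉ Icc 0 m := fun h => by linarith [h.1]
        simp [h1, h2, h3]
      · by_cases h2 : v ≤ m
        · have h3 : v ∈ Icc 0 m := ⟨not_lt.1 h1, h2⟩
          simp [h1, h2, h3]
        · have h3 : v ∉ Icc 0 m := fun h => h2 h.2
          simp [h1, h2, h3]
    rw [hfun]
    refine ⟨?_, ?_⟩
    · apply IntegrableOn.integrable_indicator _ measurableSet_Icc
      exact integrableOn_const (by simp)
    · rw [integral_indicator_const _ measurableSet_Icc]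
      simp [Measure.real, Real.volume_Icc, hm]
  · have hfun : (fun v : ℝ => (Iic m).indicator (fun _ => (1 : ℝ)) v
        - (Iio (0 : ℝ)).indicator (fun _ => (1 : ℝ)) v) = (Ioo m 0).indicator (fun _ => (-1 : ℝ)) := by
      funext v
      by_cases h1 : v ≤ m
      · have h2 : v < 0 := by linarith
        have h3 : v ∉ Ioo m 0 := fun h => by linarith [h.1]
        simp [h1, h2, h3]
      · by_cases h2 : v < 0
        · have h3 : v ∈ Ioo m 0 := ⟨not_le.1 h1, h2⟩
          simp [h1, h2, h3]
        · have h3 : v ∉ Ioo m 0 := fun h => h2 h.2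
          simp [h1, h2, h3]
    rw [hfun]
    refine ⟨?_, ?_⟩
    · apply IntegrableOn.integrable_indicator _ measurableSet_Ioo
      exact integrableOn_const (by simp)
    · rw [integral_indicator_const _ measurableSet_Ioo]
      simp [Measure.real, Real.volume_Ioo, hm.le]

/-- (C6b) integrability of `S*_{m,s} - 1_{(-∞,0)}`. -/
theorem integrable_expSurv_sub {s : ℝ} (hs : 0 < s) (m : ℝ) :
    Integrable (fun v => expSurv m s v - (Iio (0 : ℝ)).indicator (fun _ => (1 : ℝ)) v) := by
  have h1 : Integrable ((Ioi m).indicator (fun v => Real.exp (-(v - m) / s))) :=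
    (integrableOn_exp_neg_sub_div hs m).integrable_indicator measurableSet_Ioi
  have h2 := (integrable_Iic_sub_Iio m).1
  refine (h1.add h2).congr (ae_of_all _ fun v => ?_)
  simp only [Pi.add_apply]
  rw [expSurv_sub_indicator_eq hs m v]

/-- (C6b) the mean of `S*_{m,s}` is `m + s`. -/
theorem integral_expSurv_sub {s : ℝ} (hs : 0 < s) (m : ℝ) :
    ∫ v, (expSurv m s v - (Iio (0 : ℝ)).indicator (fun _ => (1 : ℝ)) v) = m + s := by
  have h1 : Integrable ((Ioi m).indicator (fun v => Real.exp (-(v - m) / s))) :=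
    (integrableOn_exp_neg_sub_div hs m).integrable_indicator measurableSet_Ioi
  have h2 := (integrable_Iic_sub_Iio m).1
  simp_rw [expSurv_sub_indicator_eq hs m]
  rw [integral_add h1 h2, (integrable_Iic_sub_Iio m).2, integral_indicator measurableSet_Ioi,
    integral_exp_neg_sub_div hs m]
  ring

/-- (C6b), written out. -/
theorem integral_min_exp_sub_indicator {s : ℝ} (hs : 0 < s) (m : ℝ) :
    ∫ v : ℝ, (min 1 (Real.exp (-(v - m) / s)) - (Iio (0 : ℝ)).indicator (fun _ => (1 : ℝ)) v)
      = m + s :=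
  integral_expSurv_sub hs m

theorem integrable_expSurv_sub_expSurv {s : ℝ} (hs : 0 < s) (m1 m2 : ℝ) :
    Integrable (fun v => expSurv m2 s v - expSurv m1 s v) := by
  refine ((integrable_expSurv_sub hs m2).sub (integrable_expSurv_sub hs m1)).congr
    (ae_of_all _ fun v => ?_)
  simp only [Pi.sub_apply]; ring

theorem integral_expSurv_sub_expSurv {s : ℝ} (hs : 0 < s) (m1 m2 : ℝ) :
    ∫ v, (expSurv m2 s v - expSurv m1 s v) = m2 - m1 := by
  have h := integral_sub (integrable_expSurv_sub hs m2) (integrable_expSurv_sub hs m1)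
  rw [integral_expSurv_sub hs m2, integral_expSurv_sub hs m1] at h
  have h' : (m2 + s) - (m1 + s) = m2 - m1 := by ring
  rw [← h', ← h]
  congr 1; funext v; ring

/-- (C3) `Psi` is `exp (-1)`-Lipschitz in `m` (one-sided form). -/
theorem psi_sub_le {s : ℝ} (hs : 0 < s) {m1 m2 : ℝ} (h : m1 ≤ m2) :
    (∫ v in Ioi 0, v * Real.exp (-v) * min 1 (Real.exp (-(v - m2) / s))) -
      (∫ v in Ioi 0, v * Real.exp (-v) * min 1 (Real.exp (-(v - m1) / s)))
      ≤ (m2 - m1) * Real.exp (-1) := by
  rw [← integral_sub (integrableOn_psi_integrand m2 s) (integrableOn_psi_integrand m1 s)]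
  have hint := integrable_expSurv_sub_expSurv hs m1 m2
  calc ∫ v in Ioi 0, (v * Real.exp (-v) * min 1 (Real.exp (-(v - m2) / s))
          - v * Real.exp (-v) * min 1 (Real.exp (-(v - m1) / s)))
      ≤ ∫ v in Ioi 0, Real.exp (-1) * (expSurv m2 s v - expSurv m1 s v) := by
        apply setIntegral_mono_on
          ((integrableOn_psi_integrand m2 s).sub (integrableOn_psi_integrand m1 s))
          (hint.integrableOn.const_mul _) measurableSet_Ioi
        intro v hv
        have h1 := expSurv_mono_m hs h v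
        have h2 := wgt_le v
        unfold wgt at h2
        unfold expSurv at h1 ⊢
        simp only [Pi.sub_apply]
        nlinarith [mul_nonneg (sub_nonneg.2 h2) (sub_nonneg.2 h1)]
    _ = Real.exp (-1) * ∫ v in Ioi 0, (expSurv m2 s v - expSurv m1 s v) := integral_const_mul _ _
    _ ≤ Real.exp (-1) * ∫ v, (expSurv m2 s v - expSurv m1 s v) := by
        apply mul_le_mul_of_nonneg_left _ (Real.exp_pos _).le
        exact setIntegral_le_integral hint
          (ae_of_all _ fun v => sub_nonneg.2 (expSurv_mono_m hs h v))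
    _ = (m2 - m1) * Real.exp (-1) := by rw [integral_expSurv_sub_expSurv hs m1 m2]; ring

end Crest.Agent.Helper3
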